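import Mathlib

/-! # P220 (row R4): transitivity of the unitary group on unitary pairs -/

namespace Vale.Agent.P220.R2.H941

theorem inner_J {V : Type} [NormedAddCommGroup V] [InnerProductSpace ℝ V]
    {J : V ≃ₗᵢ[ℝ] V} (hJ : ∀ x, J (J x) = -x) (x y : V) :
    (inner ℝ (J x) y : ℝ) = - inner ℝ x (J y) := by
  rw [← J.inner_map_map (J x) y, hJ, inner_neg_left]

/-- complex reflections -/
theorem crefl {V : Type} [NormedAddCommGroup V] [InnerProductSpace ℝ V] [FiniteDimensional ℝ V]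
    {J : V ≃ₗᵢ[ℝ] V} (hJ : ∀ x, J (J x) = -x) {a b : V} (ha : ‖a‖ = 1) (hb : ‖b‖ = 1) :
    ∃ g : V ≃ₗᵢ[ℝ] V, (∀ x, g (J x) = J (g x)) ∧ g a = b ∧
      ∀ z, inner ℝ z (a - b) = (0 : ℝ) → inner ℝ z (J (a - b)) = (0 : ℝ) → g z = z := by
  by_cases hab : a = b
  · subst hab
    exact ⟨LinearIsometryEquiv.refl ℝ V, fun x => rfl, rfl, fun z _ _ => rfl⟩
  have hv00 : 0 < ‖a - b‖ := norm_pos_iff.2 (sub_ne_zero.2 hab)
  generalize hv : a - b = v
  have hv0 : 0 < ‖v‖ := by rw [← hv]; exact hv00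
  set p : ℝ := inner ℝ a v with hp
  set q : ℝ := inner ℝ a (J v) with hq
  have haa : (inner ℝ a a : ℝ) = 1 := by rw [real_inner_self_eq_norm_sq, ha]; norm_num
  have hbb : (inner ℝ b b : ℝ) = 1 := by rw [real_inner_self_eq_norm_sq, hb]; norm_num
  have hp2 : ‖v‖ ^ 2 = 2 * p := by
    rw [hp, ← real_inner_self_eq_norm_sq, ← hv, inner_sub_left, inner_sub_right, inner_sub_right,
      haa, hbb, real_inner_comm a b]
    ring
  have hp0 : 0 < p := by nlinarith
  set D : ℝ := p ^ 2 + q ^ 2 with hD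
  have hD0 : 0 < D := by positivity
  have hJJ : ∀ x, (inner ℝ (J x) v : ℝ) = - inner ℝ x (J v) := fun x => inner_J hJ x v
  have hJJ' : ∀ x, (inner ℝ (J x) (J v) : ℝ) = inner ℝ x v := fun x => J.inner_map_map x v
  have hvJ : (inner ℝ v (J v) : ℝ) = 0 := by
    have h := hJJ v
    rw [real_inner_comm] at h
    linarith
  let A : V → ℝ := fun x => (p * inner ℝ x v + q * inner ℝ x (J v)) / D
  let B : V → ℝ := fun x => (p * inner ℝ x (J v) - q * inner ℝ x v) / D
  let f : V →ₗ[ℝ] V :=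
    { toFun := fun x => x - A x • v - B x • J v
      map_add' := by
        intro x y
        have h1 : A (x + y) = A x + A y := by
          simp only [A, inner_add_left]; ring
        have h2 : B (x + y) = B x + B y := by
          simp only [B, inner_add_left]; ring
        rw [h1, h2, add_smul, add_smul]
        abel
      map_smul' := by
        intro c x
        have h1 : A (c • x) = c * A x := by
          simp only [A, real_inner_smul_left]; ring
        have h2 : B (c • x) = c * B x := by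
          simp only [B, real_inner_smul_left]; ring
        simp only [RingHom.id_apply]
        rw [h1, h2, mul_smul, mul_smul, smul_sub, smul_sub] }
  have hf : ∀ x, f x = x - A x • v - B x • J v := fun x => rfl
  have hnorm : ∀ x, ‖f x‖ = ‖x‖ := by
    intro x
    have h : ‖f x‖ ^ 2 = ‖x‖ ^ 2 := by
      rw [hf, ← real_inner_self_eq_norm_sq, ← real_inner_self_eq_norm_sq]
      have e1 : (inner ℝ v v : ℝ) = 2 * p := by rw [real_inner_self_eq_norm_sq, hp2]
      have e2 : (inner ℝ (J v) (J v) : ℝ) = 2 * p := by rw [hJJ', e1]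
      simp only [inner_sub_left, inner_sub_right, real_inner_smul_left, real_inner_smul_right,
        e1, e2, hvJ, real_inner_comm v (J v), real_inner_comm x v, real_inner_comm x (J v)]
      simp only [A, B]
      field_simp
      rw [hD]
      ring
    have := sq_eq_sq₀ (norm_nonneg (f x)) (norm_nonneg x)
    exact this.1 h
  let g : V ≃ₗᵢ[ℝ] V := LinearIsometry.toLinearIsometryEquiv ⟨f, hnorm⟩ rfl
  have hg : ∀ x, g x = x - A x • v - B x • J v := fun x => rfl
  refine ⟨g, fun x => ?_, ?_, fun z hz hz' => ?_⟩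
  · have h1 : A (J x) = - B x := by
      simp only [A, B, hJJ, hJJ']; ring
    have h2 : B (J x) = A x := by
      simp only [A, B, hJJ, hJJ']; ring
    rw [hg, hg, h1, h2, map_sub, map_sub, map_smul, map_smul, hJ]
    simp only [neg_smul, smul_neg]
    abel
  · have h1 : A a = 1 := by
      change (p * p + q * q) / D = 1
      rw [hD, div_eq_one_iff_eq (by positivity)]
      ring
    have h2 : B a = 0 := by
      change (p * q - q * p) / D = 0
      rw [mul_comm q p, sub_self, zero_div]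
    rw [hg, h1, h2, one_smul, zero_smul, sub_zero, ← hv]
    abel
  · have h1 : A z = 0 := by simp only [A, hz, hz']; simp
    have h2 : B z = 0 := by simp only [B, hz, hz']; simp
    rw [hg, h1, h2, zero_smul, zero_smul, sub_zero, sub_zero]

/-- ROW R4 -/
theorem row_U {V : Type} [NormedAddCommGroup V] [InnerProductSpace ℝ V] [FiniteDimensional ℝ V]
    {J : V ≃ₗᵢ[ℝ] V} (hJ : ∀ x, J (J x) = -x) {e u e' u' : V}
    (he : ‖e‖ = 1) (hu : ‖u‖ = 1) (heu : inner ℝ e u = (0 : ℝ)) (heJ : inner ℝ e (J u) = (0 : ℝ))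
    (he' : ‖e'‖ = 1) (hu' : ‖u'‖ = 1) (heu' : inner ℝ e' u' = (0 : ℝ))
    (heJ' : inner ℝ e' (J u') = (0 : ℝ)) :
    ∃ g : V ≃ₗᵢ[ℝ] V, (∀ x, g (J x) = J (g x)) ∧ g e' = e ∧ g u' = u := by
  obtain ⟨g₁, c₁, h₁, -⟩ := crefl hJ he' he
  have hu1 : ‖g₁ u'‖ = 1 := by rw [g₁.norm_map, hu']
  obtain ⟨g₂, c₂, h₂, k₂⟩ := crefl hJ hu1 hu
  have e1 : (inner ℝ e (g₁ u') : ℝ) = 0 := by
    rw [← h₁, g₁.inner_map_map, heu']
  have e2 : (inner ℝ e (J (g₁ u')) : ℝ) = 0 := by
    rw [← c₁, ← h₁, g₁.inner_map_map, heJ']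
  refine ⟨g₁.trans g₂, fun x => ?_, ?_, ?_⟩
  · rw [LinearIsometryEquiv.trans_apply, LinearIsometryEquiv.trans_apply, c₁, c₂]
  · rw [LinearIsometryEquiv.trans_apply, h₁]
    refine k₂ e ?_ ?_
    · rw [inner_sub_right, e1, heu, sub_zero]
    · rw [map_sub, inner_sub_right, e2, heJ, sub_zero]
  · rw [LinearIsometryEquiv.trans_apply, h₂]

end Vale.Agent.P220.R2.H941
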